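/-
helper13 -- S0355 squad (track D), package E2 (Split).
`volume_split`: the Lebesgue volume of a "product set" with respect to a splitting of the
coordinates by a predicate is the product of the volumes.
`volume_twoBlock_of`: the two-block simplex volume, from the simplex volume (package E1) passed
as a hypothesis (so that this file does not depend on the E1 file).
-/
import Crest.Agent.Helper28.S0355.Defs

set_option autoImplicit false
open MeasureTheory
open scoped ENNReal

namespace Crest.Agent.Helper13.S0355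

open Crest.Agent.Helper28.S0355

theorem volume_split {ι : Type} [Fintype ι] (p : ι → Prop) [DecidablePred p]
    (S1 : Set ({i // p i} → ℝ)) (S2 : Set ({i // ¬ p i} → ℝ)) :
    volume {x : ι → ℝ | (fun i : {i // p i} => x i) ∈ S1 ∧ (fun i : {i // ¬ p i} => x i) ∈ S2} =
      volume S1 * volume S2 := by
  have hmp := volume_preserving_piEquivPiSubtypeProd (fun _ : ι => ℝ) p
  have hset : {x : ι → ℝ | (fun i : {i // p i} => x i) ∈ S1 ∧
      (fun i : {i // ¬ p i} => x i) ∈ S2} =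
      (MeasurableEquiv.piEquivPiSubtypeProd (fun _ : ι => ℝ) p) ⁻¹' (S1 ×ˢ S2) := by
    ext x
    simp [MeasurableEquiv.piEquivPiSubtypeProd, Equiv.piEquivPiSubtypeProd]
  rw [hset, hmp.measure_preimage_equiv, Measure.volume_eq_prod, Measure.prod_prod]

/-- The two-block simplex volume, with the simplex volume (package E1) as a hypothesis. -/
theorem volume_twoBlock_of
    (hS : ∀ (κ : Type) [Fintype κ],
      volume {y : κ → ℝ | (∀ i, 0 ≤ y i) ∧ ∑ i, y i ≤ 1} =
        ENNReal.ofReal (1 / ((Fintype.card κ).factorial : ℝ)))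
    {ι : Type} [Fintype ι] [DecidableEq ι] (A : Finset ι) :
    volume {y : ι → ℝ | (∀ i, 0 ≤ y i) ∧ ∑ i ∈ A, y i ≤ 1 ∧ ∑ i ∈ Aᶜ, y i ≤ 1} =
      ENNReal.ofReal (1 / ((A.card.factorial : ℝ) * (Aᶜ.card.factorial : ℝ))) := by
  -- the simplex in `κ → ℝ`, for an explicitly given `Fintype` instance
  set T : ∀ (κ : Type) (_ : Fintype κ), Set (κ → ℝ) :=
    fun κ _ => {y : κ → ℝ | (∀ i, 0 ≤ y i) ∧ ∑ i, y i ≤ 1} with hT
  have hS' : ∀ (κ : Type) (I : Fintype κ),
      volume (T κ I) = ENNReal.ofReal (1 / ((Fintype.card κ).factorial : ℝ)) :=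
    fun κ I => hS κ
  have hset : {y : ι → ℝ | (∀ i, 0 ≤ y i) ∧ ∑ i ∈ A, y i ≤ 1 ∧ ∑ i ∈ Aᶜ, y i ≤ 1} =
      {x : ι → ℝ | (fun i : {i // (fun i => i ∈ A) i} => x i) ∈
          T {i // (fun i => i ∈ A) i} (Subtype.fintype _) ∧
        (fun i : {i // ¬ (fun i => i ∈ A) i} => x i) ∈
          T {i // ¬ (fun i => i ∈ A) i} (Subtype.fintype _)} := by
    ext x
    have h1 : ∑ i ∈ A, x i =
        @Finset.sum {i // (fun i => i ∈ A) i} ℝ _ (@Finset.univ _ (Subtype.fintype _))
          (fun i => x i) :=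
      Finset.sum_subtype A (fun _ => Iff.rfl) x
    have h2 : ∑ i ∈ Aᶜ, x i =
        @Finset.sum {i // ¬ (fun i => i ∈ A) i} ℝ _ (@Finset.univ _ (Subtype.fintype _))
          (fun i => x i) :=
      Finset.sum_subtype Aᶜ (fun i => Finset.mem_compl) x
    simp only [hT, Set.mem_ofPred_eq]
    rw [h1, h2]
    constructor
    · rintro ⟨h0, ha, hb⟩
      exact ⟨⟨fun i => h0 i, ha⟩, ⟨fun i => h0 i, hb⟩⟩
    · rintro ⟨⟨ha0, ha⟩, ⟨hb0, hb⟩⟩
      refine ⟨fun i => ?_, ha, hb⟩
      by_cases hi : i ∈ A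
      · exact ha0 ⟨i, hi⟩
      · exact hb0 ⟨i, hi⟩
  rw [hset, volume_split (fun i => i ∈ A), hS', hS']
  have c1 : @Fintype.card {i // (fun i => i ∈ A) i} (Subtype.fintype _) = A.card :=
    @Fintype.card_of_subtype ι (fun i => i ∈ A) A (fun _ => Iff.rfl) (Subtype.fintype _)
  have c2 : @Fintype.card {i // ¬ (fun i => i ∈ A) i} (Subtype.fintype _) = Aᶜ.card :=
    @Fintype.card_of_subtype ι (fun i => ¬ i ∈ A) Aᶜ (fun i => Finset.mem_compl)
      (Subtype.fintype _)
  rw [c1, c2, ← ENNReal.ofReal_mul (by positivity)]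
  congr 1
  rw [one_div_mul_one_div]

end Crest.Agent.Helper13.S0355
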