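/-
helper13 -- S0355 squad (track D), package E2 (Split), part 2:
`volume_twoBlock` with the exact Blueprint signature, from `volume_twoBlock_of` (this seat,
`Split.lean`) and the simplex volume `volume_simplex` (package E1, helper97, `Simplex.lean`).
-/
import Crest.Agent.Helper13.S0355.Split
import Crest.Agent.Helper97.S0355.Simplex

set_option autoImplicit false
open MeasureTheory
open scoped ENNReal

namespace Crest.Agent.Helper13.S0355

open Crest.Agent.Helper28.S0355

theorem volume_twoBlock {ι : Type} [Fintype ι] [DecidableEq ι] (A : Finset ι) :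
    volume {y : ι → ℝ | (∀ i, 0 ≤ y i) ∧ ∑ i ∈ A, y i ≤ 1 ∧ ∑ i ∈ Aᶜ, y i ≤ 1} =
      ENNReal.ofReal (1 / ((A.card.factorial : ℝ) * (Aᶜ.card.factorial : ℝ))) :=
  volume_twoBlock_of (fun κ _ => Crest.Agent.Helper97.S0355.volume_simplex κ) A

end Crest.Agent.Helper13.S0355
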